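import Mathlib

namespace Vale.Agent.Results.P043.ProductTiles

/-- `A ⊕ F = G`: every `g` has a unique expression `g = a + f` with `a ∈ A`, `f ∈ F`. -/
def Tiling {G : Type*} [AddCommGroup G] (A F : Set G) : Prop :=
  ∀ g : G, ∃! p : G × G, p.1 ∈ A ∧ p.2 ∈ F ∧ p.1 + p.2 = g

/-- `A` is invariant under all translations from some subgroup of finite index. -/
def Periodic {G : Type*} [AddCommGroup G] (A : Set G) : Prop :=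
  ∃ H : AddSubgroup G, H.FiniteIndex ∧ ∀ h ∈ H, ∀ a : G, a + h ∈ A ↔ a ∈ A

/-- Some translation set tiles `G` by `F`. -/
def IsTile {G : Type*} [AddCommGroup G] (F : Set G) : Prop := ∃ A : Set G, Tiling A F

/-- Some periodic translation set tiles `G` by `F`. -/
def HasPeriodicTiling {G : Type*} [AddCommGroup G] (F : Set G) : Prop :=
  ∃ A : Set G, Tiling A F ∧ Periodic A

variable {G₁ G₂ : Type*} [AddCommGroup G₁] [AddCommGroup G₂]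

lemma slice_left {F₁ : Set G₁} {F₂ : Set G₂} {A : Set (G₁ × G₂)} (h : Tiling A (F₁ ×ˢ F₂)) :
    Tiling {a : G₁ | ∃ b : G₂, (a, b) ∈ A ∧ -b ∈ F₂} F₁ := by
  intro g
  obtain ⟨⟨a, f⟩, ⟨ha, hf, he⟩, hu⟩ := h (g, 0)
  simp only at ha hf he hu
  have e1 : a.1 + f.1 = g := by have := congrArg Prod.fst he; simpa using this
  have e2 : a.2 + f.2 = 0 := by have := congrArg Prod.snd he; simpa using this
  have e3 : -a.2 = f.2 := by rw [neg_eq_iff_add_eq_zero]; exact e2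
  refine ⟨(a.1, f.1), ⟨⟨a.2, ha, by rw [e3]; exact hf.2⟩, hf.1, e1⟩, ?_⟩
  rintro ⟨a', f'⟩ ⟨⟨b, hb, hbF⟩, hf', he'⟩
  simp only at hb hbF hf' he'
  have := hu ((a', b), (f', -b)) ⟨hb, ⟨hf', hbF⟩, by ext <;> simp [he']⟩
  have h1 := congrArg (fun q => q.1.1) this
  have h2 := congrArg (fun q => q.2.1) this
  simp only at h1 h2
  rw [h1, h2]

lemma slice_right {F₁ : Set G₁} {F₂ : Set G₂} {A : Set (G₁ × G₂)} (h : Tiling A (F₁ ×ˢ F₂)) :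
    Tiling {b : G₂ | ∃ a : G₁, (a, b) ∈ A ∧ -a ∈ F₁} F₂ := by
  intro g
  obtain ⟨⟨a, f⟩, ⟨ha, hf, he⟩, hu⟩ := h (0, g)
  simp only at ha hf he hu
  have e1 : a.1 + f.1 = 0 := by have := congrArg Prod.fst he; simpa using this
  have e2 : a.2 + f.2 = g := by have := congrArg Prod.snd he; simpa using this
  have e3 : -a.1 = f.1 := by rw [neg_eq_iff_add_eq_zero]; exact e1
  refine ⟨(a.2, f.2), ⟨⟨a.1, ha, by rw [e3]; exact hf.1⟩, hf.2, e2⟩, ?_⟩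
  rintro ⟨b', f'⟩ ⟨⟨c, hc, hcF⟩, hf', he'⟩
  simp only at hc hcF hf' he'
  have := hu ((c, b'), (-c, f')) ⟨hc, ⟨hcF, hf'⟩, by ext <;> simp [he']⟩
  have h1 := congrArg (fun q => q.1.2) this
  have h2 := congrArg (fun q => q.2.2) this
  simp only at h1 h2
  rw [h1, h2]

lemma tiling_prod {F₁ : Set G₁} {F₂ : Set G₂} {A₁ : Set G₁} {A₂ : Set G₂}
    (h₁ : Tiling A₁ F₁) (h₂ : Tiling A₂ F₂) : Tiling (A₁ ×ˢ A₂) (F₁ ×ˢ F₂) := by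
  rintro ⟨g₁, g₂⟩
  obtain ⟨⟨a₁, f₁⟩, ⟨ha₁, hf₁, he₁⟩, hu₁⟩ := h₁ g₁
  obtain ⟨⟨a₂, f₂⟩, ⟨ha₂, hf₂, he₂⟩, hu₂⟩ := h₂ g₂
  simp only at ha₁ hf₁ he₁ ha₂ hf₂ he₂
  refine ⟨((a₁, a₂), (f₁, f₂)), ⟨⟨ha₁, ha₂⟩, ⟨hf₁, hf₂⟩, by ext <;> simp [he₁, he₂]⟩, ?_⟩
  rintro ⟨⟨b₁, b₂⟩, ⟨c₁, c₂⟩⟩ ⟨⟨hb₁, hb₂⟩, ⟨hc₁, hc₂⟩, he⟩
  simp only at hb₁ hb₂ hc₁ hc₂ he
  have e1 : b₁ + c₁ = g₁ := by have := congrArg Prod.fst he; simpa using this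
  have e2 : b₂ + c₂ = g₂ := by have := congrArg Prod.snd he; simpa using this
  have u1 := hu₁ (b₁, c₁) ⟨hb₁, hc₁, e1⟩
  have u2 := hu₂ (b₂, c₂) ⟨hb₂, hc₂, e2⟩
  simp only [Prod.mk.injEq] at u1 u2
  rw [u1.1, u1.2, u2.1, u2.2]

lemma periodic_left {F₂ : Set G₂} {A : Set (G₁ × G₂)} (h : Periodic A) :
    Periodic {a : G₁ | ∃ b : G₂, (a, b) ∈ A ∧ -b ∈ F₂} := by
  obtain ⟨H, hH, hper⟩ := h
  refine ⟨H.comap (AddMonoidHom.inl G₁ G₂), ⟨?_⟩, ?_⟩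
  · rw [AddSubgroup.index_comap]
    intro h0
    refine hH.index_ne_zero ?_
    rw [← AddSubgroup.relIndex_top_right]
    exact AddSubgroup.relIndex_eq_zero_of_le_right le_top h0
  intro x hx a
  simp only [AddSubgroup.mem_comap, AddMonoidHom.inl_apply] at hx
  have key : ∀ b : G₂, (a + x, b) ∈ A ↔ (a, b) ∈ A := by
    intro b
    have := hper (x, 0) hx (a, b)
    simpa using this
  constructor
  · rintro ⟨b, hb, hF⟩; exact ⟨b, (key b).mp hb, hF⟩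
  · rintro ⟨b, hb, hF⟩; exact ⟨b, (key b).mpr hb, hF⟩

lemma periodic_right {F₁ : Set G₁} {A : Set (G₁ × G₂)} (h : Periodic A) :
    Periodic {b : G₂ | ∃ a : G₁, (a, b) ∈ A ∧ -a ∈ F₁} := by
  obtain ⟨H, hH, hper⟩ := h
  refine ⟨H.comap (AddMonoidHom.inr G₁ G₂), ⟨?_⟩, ?_⟩
  · rw [AddSubgroup.index_comap]
    intro h0
    refine hH.index_ne_zero ?_
    rw [← AddSubgroup.relIndex_top_right]
    exact AddSubgroup.relIndex_eq_zero_of_le_right le_top h0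
  intro x hx b
  simp only [AddSubgroup.mem_comap, AddMonoidHom.inr_apply] at hx
  have key : ∀ a : G₁, (a, b + x) ∈ A ↔ (a, b) ∈ A := by
    intro a
    have := hper (0, x) hx (a, b)
    simpa using this
  constructor
  · rintro ⟨a, hb, hF⟩; exact ⟨a, (key a).mp hb, hF⟩
  · rintro ⟨a, hb, hF⟩; exact ⟨a, (key a).mpr hb, hF⟩

lemma periodic_prod {A₁ : Set G₁} {A₂ : Set G₂} (h₁ : Periodic A₁) (h₂ : Periodic A₂) :
    Periodic (A₁ ×ˢ A₂) := by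
  obtain ⟨H₁, hH₁, p₁⟩ := h₁
  obtain ⟨H₂, hH₂, p₂⟩ := h₂
  refine ⟨H₁.prod H₂, ⟨?_⟩, ?_⟩
  · rw [AddSubgroup.index_prod]
    exact mul_ne_zero hH₁.index_ne_zero hH₂.index_ne_zero
  · rintro ⟨x, y⟩ hxy ⟨a, b⟩
    rw [AddSubgroup.mem_prod] at hxy
    simp only [Prod.mk_add_mk, Set.mem_prod]
    rw [p₁ x hxy.1 a, p₂ y hxy.2 b]

/-- **Result.** -/
theorem result :
    ∀ (G₁ G₂ : Type) [AddCommGroup G₁] [AddCommGroup G₂] (F₁ : Finset G₁) (F₂ : Finset G₂),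
      F₁.Nonempty → F₂.Nonempty →
      (IsTile ((F₁ : Set G₁) ×ˢ (F₂ : Set G₂)) ↔ IsTile (F₁ : Set G₁) ∧ IsTile (F₂ : Set G₂)) ∧
      (HasPeriodicTiling ((F₁ : Set G₁) ×ˢ (F₂ : Set G₂)) ↔
        HasPeriodicTiling (F₁ : Set G₁) ∧ HasPeriodicTiling (F₂ : Set G₂)) := by
  intro G₁ G₂ _ _ F₁ F₂ _ _
  refine ⟨⟨?_, ?_⟩, ⟨?_, ?_⟩⟩
  · rintro ⟨A, hA⟩
    exact ⟨⟨_, slice_left hA⟩, ⟨_, slice_right hA⟩⟩
  · rintro ⟨⟨A₁, h₁⟩, ⟨A₂, h₂⟩⟩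
    exact ⟨_, tiling_prod h₁ h₂⟩
  · rintro ⟨A, hA, hp⟩
    exact ⟨⟨_, slice_left hA, periodic_left hp⟩, ⟨_, slice_right hA, periodic_right hp⟩⟩
  · rintro ⟨⟨A₁, h₁, q₁⟩, ⟨A₂, h₂, q₂⟩⟩
    exact ⟨_, tiling_prod h₁ h₂, periodic_prod q₁ q₂⟩

end Vale.Agent.Results.P043.ProductTiles
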